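import Vale.Agent.P048.Core
import Vale.Agent.P048.Reduce

/-!
The cycle versus complete graph Ramsey numbers. A red-blue colouring of the edges of the complete
graph on `Fin N` is given by its red graph `G`; the blue graph is the complement of `G`.
-/

namespace Vale.Agent.Results.P048.CycleComplete

theorem result (m n : ℕ) (hn : 3 ≤ n) (hmn : n ≤ m) (h33 : (m, n) ≠ (3, 3)) :
    IsLeast {N : ℕ | ∀ G : SimpleGraph (Fin N),
      (SimpleGraph.cycleGraph m).IsContained G ∨
        (⊤ : SimpleGraph (Fin n)).IsContained (G)ᶜ} ((m - 1) * (n - 1) + 1) := by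
  have hm : 4 ≤ m := by
    by_contra h
    exact h33 (Prod.ext (by omega) (by omega))
  exact Vale.Agent.P048.ramsey_of_core m n (by omega) hmn hm (Vale.Agent.P048.core (by omega))

end Vale.Agent.Results.P048.CycleComplete
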