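import Vale.Agent.P048.Core
import Vale.Agent.P048.Reduce

/-!
The set of pairs at which the cycle versus complete graph Ramsey formula holds. A red-blue
colouring of the edges of the complete graph on `Fin N` is given by its red graph `G`; the blue
graph is the complement of `G`.
-/

namespace Vale.Agent.Results.P048.CycleCompleteIff

theorem result (m n : ℕ) (hn : 3 ≤ n) (hmn : n ≤ m) :
    IsLeast {N : ℕ | ∀ G : SimpleGraph (Fin N),
      (SimpleGraph.cycleGraph m).IsContained G ∨
        (⊤ : SimpleGraph (Fin n)).IsContained (G)ᶜ} ((m - 1) * (n - 1) + 1) ↔ (m, n) ≠ (3, 3) := by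
  constructor
  · intro h e
    obtain ⟨rfl, rfl⟩ := Prod.mk.inj e
    have h1 : ∀ a b c : Fin 5, ¬ ((SimpleGraph.cycleGraph 5).Adj a b ∧
        (SimpleGraph.cycleGraph 5).Adj b c ∧ (SimpleGraph.cycleGraph 5).Adj a c) := by decide
    have h2 : ∀ a b c : Fin 5, ¬ ((SimpleGraph.cycleGraph 5)ᶜ.Adj a b ∧
        (SimpleGraph.cycleGraph 5)ᶜ.Adj b c ∧ (SimpleGraph.cycleGraph 5)ᶜ.Adj a c) := by decide
    rcases h.1 (SimpleGraph.cycleGraph 5) with ⟨⟨f⟩⟩ | ⟨⟨f⟩⟩
    · exact h1 (f.toHom 0) (f.toHom 1) (f.toHom 2) ⟨f.toHom.map_adj (by decide),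
        f.toHom.map_adj (by decide), f.toHom.map_adj (by decide)⟩
    · exact h2 (f.toHom 0) (f.toHom 1) (f.toHom 2) ⟨f.toHom.map_adj (by decide),
        f.toHom.map_adj (by decide), f.toHom.map_adj (by decide)⟩
  · intro h33
    have hm : 4 ≤ m := by
      by_contra h
      exact h33 (Prod.ext (by omega) (by omega))
    exact Vale.Agent.P048.ramsey_of_core m n (by omega) hmn hm (Vale.Agent.P048.core (by omega))

end Vale.Agent.Results.P048.CycleCompleteIff
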